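import Vale.Agent.Lib.P083.SeqEmbed

/-!
# Residually finite-dimensional C*-algebras embed unitally into the norm ultrapower of `O_2`
(the embedding is spelled out on representing sequences)
-/

namespace Vale.Agent.Results.P083.ARFDSeq

open Vale.Agent.Lib.P083

theorem result (A : Type*) [CStarAlgebra A] (B : Type*) [CStarAlgebra B] [Nontrivial B]
    (s₁ s₂ : B) (h₁ : star s₁ * s₁ = 1) (h₂ : star s₂ * s₂ = 1)
    (h₃ : s₁ * star s₁ + s₂ * star s₂ = 1)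
    (ω : Ultrafilter ℕ) (hω : (ω : Filter ℕ) ≤ Filter.cofinite) (d : ℕ → ℕ)
    (π : ∀ k, A →⋆ₐ[ℂ] Matrix (Fin (d k + 1)) (Fin (d k + 1)) ℂ)
    (hπ : ∀ a : A, (∀ k, π k a = 0) → a = 0) :
    ∃ Φ : A → ℕ → B, IsUltrapowerEmbedding ω Φ :=
  exists_isUltrapowerEmbedding_of_rfd ⟨h₁, h₂, h₃⟩ ω hω d π hπ

end Vale.Agent.Results.P083.ARFDSeq
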